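import Mathlib

/-!
# Laguerre cells, Laguerre potentials and optimal prices (semi-discrete optimal transport)

Common definitions for the proof that potentials of quadratic optimal transport from the uniform
measure on a convex body are Lipschitz from `W₂` to `L²` (problem P074).
-/

namespace Vale.Agent.H22.OT

open MeasureTheory Set

variable {E : Type*} [NormedAddCommGroup E] [InnerProductSpace ℝ E] {ι : Type*}

/-- The Laguerre cell of the site `y j` in `K` for the price vector `c`: the points of `K` at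
which the affine function `x ↦ ⟨x, y j⟩ - c j` is maximal among all sites. -/
def lagCell (K : Set E) (y : ι → E) (c : ι → ℝ) (j : ι) : Set E :=
  {x | x ∈ K ∧ ∀ k, inner ℝ x (y k) - c k ≤ inner ℝ x (y j) - c j}

/-- The Laguerre potential `x ↦ max_i (⟨x, y i⟩ - c i)`. -/
noncomputable def lagPot [Fintype ι] [Nonempty ι] (y : ι → E) (c : ι → ℝ) (x : E) : ℝ :=
  Finset.univ.sup' Finset.univ_nonempty fun i => inner ℝ x (y i) - c i

/-- `c` is an optimal price vector for the source `(1 + g) dx` on `K`, the sites `y` and the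
masses `m`: every Laguerre cell has the prescribed mass. -/
def IsOptPrice [MeasureSpace E] (K : Set E) (g : E → ℝ) (y : ι → E) (m c : ι → ℝ) : Prop :=
  ∀ j, ∫ x in lagCell K y c j, (1 + g x) = m j

theorem lagCell_subset (K : Set E) (y : ι → E) (c : ι → ℝ) (j : ι) : lagCell K y c j ⊆ K :=
  fun _ hx => hx.1

theorem le_lagPot [Fintype ι] [Nonempty ι] (y : ι → E) (c : ι → ℝ) (x : E) (i : ι) :
    inner ℝ x (y i) - c i ≤ lagPot y c x :=
  Finset.le_sup' (fun i => inner ℝ x (y i) - c i) (Finset.mem_univ i)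

theorem exists_eq_lagPot [Fintype ι] [Nonempty ι] (y : ι → E) (c : ι → ℝ) (x : E) :
    ∃ i, lagPot y c x = inner ℝ x (y i) - c i := by
  obtain ⟨i, -, hi⟩ := Finset.exists_mem_eq_sup' Finset.univ_nonempty
    (fun i => inner ℝ x (y i) - c i)
  exact ⟨i, hi⟩

theorem lagPot_eq_of_mem [Fintype ι] [Nonempty ι] {K : Set E} {y : ι → E} {c : ι → ℝ} {j : ι}
    {x : E} (hx : x ∈ lagCell K y c j) : lagPot y c x = inner ℝ x (y j) - c j := by
  apply le_antisymm
  · exact Finset.sup'_le _ _ fun k _ => hx.2 k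
  · exact le_lagPot y c x j

theorem mem_lagCell_iff [Fintype ι] [Nonempty ι] {K : Set E} {y : ι → E} {c : ι → ℝ} {j : ι}
    {x : E} : x ∈ lagCell K y c j ↔ x ∈ K ∧ lagPot y c x = inner ℝ x (y j) - c j := by
  constructor
  · intro hx
    exact ⟨hx.1, lagPot_eq_of_mem hx⟩
  · rintro ⟨hK, h⟩
    exact ⟨hK, fun k => h ▸ le_lagPot y c x k⟩

/-- Every point of `K` lies in some Laguerre cell. -/
theorem exists_mem_lagCell [Fintype ι] [Nonempty ι] {K : Set E} (y : ι → E) (c : ι → ℝ) {x : E}
    (hx : x ∈ K) : ∃ j, x ∈ lagCell K y c j := by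
  obtain ⟨i, hi⟩ := exists_eq_lagPot y c x
  exact ⟨i, mem_lagCell_iff.2 ⟨hx, hi⟩⟩

/-- Subgradient property: the site of a cell containing `x` is a subgradient of the Laguerre
potential at `x`. -/
theorem lagPot_subgradient [Fintype ι] [Nonempty ι] {y : ι → E} {c : ι → ℝ} {j : ι} {x : E}
    (h : lagPot y c x = inner ℝ x (y j) - c j) (z : E) :
    lagPot y c x + inner ℝ (y j) (z - x) ≤ lagPot y c z := by
  have h1 := le_lagPot y c z j
  rw [h]
  have h2 : inner ℝ x (y j) - c j + inner ℝ (y j) (z - x) = inner ℝ z (y j) - c j := by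
    rw [inner_sub_right, real_inner_comm (y j) z, real_inner_comm (y j) x]
    ring
  linarith

/-- The midpoint of a point of the cell for `c₀` and a point of the cell for `c₁` lies in the
cell for the midpoint prices (when `K` is convex). -/
theorem midpoint_mem_lagCell {K : Set E} (hK : Convex ℝ K) {y : ι → E} {c₀ c₁ : ι → ℝ} {j : ι}
    {x x' : E} (hx : x ∈ lagCell K y c₀ j) (hx' : x' ∈ lagCell K y c₁ j) :
    (1 / 2 : ℝ) • (x + x') ∈ lagCell K y (fun i => (c₀ i + c₁ i) / 2) j := by
  refine ⟨?_, fun k => ?_⟩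
  · have := hK hx.1 hx'.1 (by norm_num : (0 : ℝ) ≤ 1 / 2) (by norm_num : (0 : ℝ) ≤ 1 / 2)
      (by norm_num : (1 / 2 : ℝ) + 1 / 2 = 1)
    rwa [← smul_add] at this
  · have h1 := hx.2 k
    have h2 := hx'.2 k
    simp only [inner_smul_left, inner_add_left, RCLike.conj_to_real]
    linarith

/-- Two cells of distinct sites overlap only inside a hyperplane. -/
theorem lagCell_inter_subset (K : Set E) (y : ι → E) (c : ι → ℝ) (j k : ι) :
    lagCell K y c j ∩ lagCell K y c k ⊆ {x | inner ℝ x (y j - y k) = c j - c k} := by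
  rintro x ⟨hj, hk⟩
  have h1 := hj.2 k
  have h2 := hk.2 j
  simp only [Set.mem_ofPred_eq, inner_sub_right]
  linarith

/-- A hyperplane is a null set for every additive Haar measure. -/
theorem hyperplane_null [MeasurableSpace E] [BorelSpace E] [FiniteDimensional ℝ E]
    (μ : Measure E) [μ.IsAddHaarMeasure] {a : E} (ha : a ≠ 0) (b : ℝ) :
    μ {x | inner ℝ x a = b} = 0 := by
  have hsub : {x : E | inner ℝ x a = b} ⊆
      (fun x => x + (-(b / ‖a‖ ^ 2) • a)) ⁻¹' ((LinearMap.ker (innerₛₗ ℝ a) : Submodule ℝ E) : Set E) := by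
    intro x hx
    simp only [Set.mem_ofPred_eq] at hx
    simp only [mem_preimage, SetLike.mem_coe, LinearMap.mem_ker]
    have hne : ‖a‖ ^ 2 ≠ 0 := by positivity
    change inner ℝ a (x + (-(b / ‖a‖ ^ 2) • a)) = 0
    rw [inner_add_right, inner_smul_right, real_inner_self_eq_norm_sq, real_inner_comm x a, hx]
    field_simp
    ring
  have hker : (LinearMap.ker (innerₛₗ ℝ a) : Submodule ℝ E) ≠ ⊤ := by
    intro htop
    have : a ∈ (LinearMap.ker (innerₛₗ ℝ a) : Submodule ℝ E) := htop ▸ Submodule.mem_top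
    rw [LinearMap.mem_ker] at this
    change inner ℝ a a = 0 at this
    exact ha (inner_self_eq_zero.1 this)
  refine measure_mono_null hsub ?_
  rw [measure_preimage_add_right]
  exact Measure.addHaar_submodule μ _ hker

theorem lagCell_inter_null [MeasurableSpace E] [BorelSpace E] [FiniteDimensional ℝ E]
    (μ : Measure E) [μ.IsAddHaarMeasure] (K : Set E) {y : ι → E} (c : ι → ℝ) {j k : ι}
    (hjk : y j ≠ y k) : μ (lagCell K y c j ∩ lagCell K y c k) = 0 :=
  measure_mono_null (lagCell_inter_subset K y c j k) (hyperplane_null μ (sub_ne_zero.2 hjk) _)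

theorem measurableSet_lagCell [MeasurableSpace E] [BorelSpace E] [Countable ι] {K : Set E}
    (hK : MeasurableSet K) (y : ι → E) (c : ι → ℝ) (j : ι) : MeasurableSet (lagCell K y c j) := by
  have : lagCell K y c j = K ∩ ⋂ k, {x | inner ℝ x (y k) - c k ≤ inner ℝ x (y j) - c j} := by
    ext x
    simp [lagCell]
  rw [this]
  refine hK.inter (MeasurableSet.iInter fun k => ?_)
  exact measurableSet_le (by fun_prop) (by fun_prop)

theorem convex_lagCell {K : Set E} (hK : Convex ℝ K) (y : ι → E) (c : ι → ℝ) (j : ι) :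
    Convex ℝ (lagCell K y c j) := by
  intro x hx x' hx' s t hs ht hst
  refine ⟨hK hx.1 hx'.1 hs ht hst, fun k => ?_⟩
  have h1 := mul_le_mul_of_nonneg_left (hx.2 k) hs
  have h2 := mul_le_mul_of_nonneg_left (hx'.2 k) ht
  simp only [inner_add_left, inner_smul_left, RCLike.conj_to_real]
  have hc : c k = s * c k + t * c k := by rw [← add_mul, hst, one_mul]
  have hc' : c j = s * c j + t * c j := by rw [← add_mul, hst, one_mul]
  linarith

end Vale.Agent.H22.OT
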