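import Vale.Agent.H22.OT.Defs
import Vale.Agent.H68.OTExistRow
import Vale.Agent.H32.OTLimit
import Vale.Agent.H65.OTBaryFinal
import Vale.Agent.H77.OT.PathEstimate

/-!
# Lipschitz stability of Brenier potentials in `L²` for matched atoms

For a compact convex body `K` of diameter at most `D` in `EuclideanSpace ℝ (Fin d)`, sites
`y`, `z` (both injective) carrying the same positive masses `m`, and price vectors `c`, `c'`
which are optimal for the uniform source on `K`, the Laguerre potentials satisfy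
`∫_K (φ_{z,c'} - φ_{y,c} - κ)² ≤ 10 D² ∑ m_i ‖z_i - y_i‖²` for the mean `κ` of the difference.

The proof tests the difference against itself: for the mean-free bounded function
`g = (w - κ) / (2 B)` the path estimate (existence of prices, barycentre stability, and the
path argument) gives `∫_K (φ_{z,c_s} - φ_{y,c}) g ≤ √10 D ‖g‖ W` for the prices `c_s` of the
perturbed source `1 + s g`, and `s → 0` gives the same bound for `c'`.
-/

open MeasureTheory Set

namespace Vale.Agent.H22.OT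

theorem continuous_lagPot {E : Type*} [NormedAddCommGroup E] [InnerProductSpace ℝ E]
    {ι : Type*} [Fintype ι] [Nonempty ι] (y : ι → E) (c : ι → ℝ) :
    Continuous (lagPot y c) := by
  rw [Vale.Agent.H77.lagPot_eq_lagPot]
  exact Vale.Agent.H77.OT.continuous_lagPot y c

theorem integrableOn_lagPot_mul {d : ℕ} {ι : Type*} [Fintype ι] [Nonempty ι]
    {K : Set (EuclideanSpace ℝ (Fin d))} (hKc : IsCompact K)
    (y : ι → EuclideanSpace ℝ (Fin d)) (c : ι → ℝ)
    {g : EuclideanSpace ℝ (Fin d) → ℝ} (hg : Measurable g) (hgb : ∀ x, |g x| ≤ 1 / 2) :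
    IntegrableOn (fun x => lagPot y c x * g x) K := by
  have h1 : IntegrableOn (lagPot y c) K :=
    (continuous_lagPot y c).continuousOn.integrableOn_compact hKc
  exact Integrable.mul_bdd (c := 1 / 2) h1 hg.aestronglyMeasurable
    (Filter.Eventually.of_forall fun x => by rw [Real.norm_eq_abs]; exact hgb x)

/-- **Lipschitz stability of Brenier potentials in `L²`**, for matched atoms. -/
theorem potential_L2_stability {d : ℕ} (hd : 1 ≤ d) {ι : Type*} [Fintype ι] [Nonempty ι]
    {K : Set (EuclideanSpace ℝ (Fin d))} (hKc : IsCompact K) (hKconv : Convex ℝ K)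
    (hKint : (interior K).Nonempty)
    {D : ℝ} (hD : ∀ x ∈ K, ∀ x' ∈ K, dist x x' ≤ D)
    (y z : ι → EuclideanSpace ℝ (Fin d)) (hy : Function.Injective y) (hz : Function.Injective z)
    (m : ι → ℝ) (hm : ∀ j, 0 < m j) (hsum : ∑ j, m j = volume.real K)
    (c c' : ι → ℝ) (h₀ : IsOptPrice K 0 y m c) (h₁ : IsOptPrice K 0 z m c') :
    ∃ κ : ℝ, ∫ x in K, (lagPot z c' x - lagPot y c x - κ) ^ 2
      ≤ 10 * D ^ 2 * ∑ i, m i * ‖z i - y i‖ ^ 2 := by
  classical
  have hKm : MeasurableSet K := hKc.measurableSet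
  have hKfin : volume K ≠ ⊤ := hKc.measure_lt_top.ne
  have hVpos : 0 < volume.real K := by
    have h1 : 0 < volume K :=
      lt_of_lt_of_le (IsOpen.measure_pos volume isOpen_interior hKint)
        (measure_mono interior_subset)
    exact ENNReal.toReal_pos h1.ne' hKfin
  have hcy : Continuous (lagPot y c) := continuous_lagPot y c
  have hcz : Continuous (lagPot z c') := continuous_lagPot z c'
  have hiy : IntegrableOn (lagPot y c) K := hcy.continuousOn.integrableOn_compact hKc
  have hiz : IntegrableOn (lagPot z c') K := hcz.continuousOn.integrableOn_compact hKc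
  -- the mean of the difference
  obtain ⟨κ, hκ⟩ : ∃ κ : ℝ, κ = (∫ x in K, (lagPot z c' x - lagPot y c x)) / volume.real K :=
    ⟨_, rfl⟩
  refine ⟨κ, ?_⟩
  obtain ⟨u, hu⟩ : ∃ u : EuclideanSpace ℝ (Fin d) → ℝ,
      u = fun x => lagPot z c' x - lagPot y c x - κ := ⟨_, rfl⟩
  have hux : ∀ x, u x = lagPot z c' x - lagPot y c x - κ := fun x => by rw [hu]
  have huc : Continuous u := by
    rw [hu]; exact (hcz.sub hcy).sub continuous_const
  have huint : IntegrableOn u K := huc.continuousOn.integrableOn_compact hKc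
  have hu0 : ∫ x in K, u x = 0 := by
    have e1 : ∫ x in K, u x
        = (∫ x in K, (lagPot z c' x - lagPot y c x)) - ∫ _x in K, κ := by
      have hwi : IntegrableOn (fun x => lagPot z c' x - lagPot y c x) K := hiz.sub hiy
      have hκi : IntegrableOn (fun _ : EuclideanSpace ℝ (Fin d) => κ) K :=
        integrableOn_const hKfin
      rw [← integral_sub hwi hκi]
      exact integral_congr_ae (Filter.Eventually.of_forall fun x => hux x)
    rw [e1, setIntegral_const, smul_eq_mul, hκ]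
    field_simp
    ring
  -- a bound for `u` on `K`
  obtain ⟨B₀, hB₀⟩ := hKc.exists_bound_of_continuousOn huc.continuousOn
  obtain ⟨B, hB, hBpos⟩ : ∃ B : ℝ, (∀ x ∈ K, |u x| ≤ B) ∧ 0 < B :=
    ⟨max B₀ 1, fun x hx => by
      have := hB₀ x hx
      rw [Real.norm_eq_abs] at this
      exact this.trans (le_max_left _ _), lt_of_lt_of_le one_pos (le_max_right _ _)⟩
  -- the test function
  obtain ⟨g, hg⟩ : ∃ g : EuclideanSpace ℝ (Fin d) → ℝ,
      g = K.indicator (fun x => u x / (2 * B)) := ⟨_, rfl⟩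
  have hgm : Measurable g := by
    rw [hg]; exact (huc.measurable.div_const _).indicator hKm
  have hgK : ∀ x ∈ K, g x = u x / (2 * B) := fun x hx => by
    rw [hg, Set.indicator_of_mem hx]
  have hgb : ∀ x, |g x| ≤ 1 / 2 := by
    intro x
    by_cases hx : x ∈ K
    · rw [hgK x hx, abs_div, abs_of_pos (by positivity : (0 : ℝ) < 2 * B),
        div_le_iff₀ (by positivity)]
      have := hB x hx
      linarith
    · rw [hg, Set.indicator_of_notMem hx]; norm_num
  have hgint : IntegrableOn g K := by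
    refine Measure.integrableOn_of_bounded (M := 1 / 2) hKfin hgm.aestronglyMeasurable ?_
    exact Filter.Eventually.of_forall fun x => by rw [Real.norm_eq_abs]; exact hgb x
  have hg0 : ∫ x in K, g x = 0 := by
    rw [setIntegral_congr_fun hKm hgK, integral_div, hu0, zero_div]
  -- the perturbed sources
  have hgsb : ∀ s ∈ Ioc (0 : ℝ) 1, ∀ x, |s * g x| ≤ 1 / 2 := by
    intro s hs x
    rw [abs_mul, abs_of_pos hs.1]
    calc s * |g x| ≤ 1 * (1 / 2) := mul_le_mul hs.2 (hgb x) (abs_nonneg _) zero_le_one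
      _ = 1 / 2 := one_mul _
  have hgs0 : ∀ s : ℝ, ∫ x in K, s * g x = 0 := by
    intro s
    rw [integral_const_mul, hg0, mul_zero]
  have hsum0 : ∑ j, m j = ∫ x in K, (1 + (0 : EuclideanSpace ℝ (Fin d) → ℝ) x) := by
    simp only [Pi.zero_apply, add_zero, setIntegral_const, smul_eq_mul, mul_one]
    exact hsum
  have hsums : ∀ s : ℝ, ∑ j, m j = ∫ x in K, (1 + s * g x) := by
    intro s
    have h1i : IntegrableOn (fun _ : EuclideanSpace ℝ (Fin d) => (1 : ℝ)) K :=
      integrableOn_const hKfin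
    rw [integral_add h1i (hgint.const_mul s), hgs0 s, add_zero,
      setIntegral_const, smul_eq_mul, mul_one]
    exact hsum
  have hex₀ : ∀ y' : ι → EuclideanSpace ℝ (Fin d), Function.Injective y' →
      ∃ c, IsOptPrice K 0 y' m c := fun y' hy' =>
    Vale.Agent.H68.exists_optPrice hKc 0 measurable_const (fun x => by simp) y' hy' m hm hsum0
  have hex₁ : ∀ s ∈ Ioc (0 : ℝ) 1, ∀ y' : ι → EuclideanSpace ℝ (Fin d),
      Function.Injective y' → ∃ c, IsOptPrice K (fun x => s * g x) y' m c :=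
    fun s hs y' hy' =>
      Vale.Agent.H68.exists_optPrice hKc (fun x => s * g x) (hgm.const_mul s) (hgsb s hs)
        y' hy' m hm (hsums s)
  have hexz : ∀ s ∈ Ioc (0 : ℝ) 1, ∃ cs : ι → ℝ, IsOptPrice K (fun x => s * g x) z m cs :=
    fun s hs => hex₁ s hs z hz
  choose! cs hcs using hexz
  -- the path estimate for every `s ∈ (0, 1]`
  obtain ⟨R, hR⟩ : ∃ R : ℝ, R = Real.sqrt 10 * D * Real.sqrt (∫ x in K, g x ^ 2) *
      Real.sqrt (∑ i, m i * ‖z i - y i‖ ^ 2) := ⟨_, rfl⟩
  have hpath : ∀ s ∈ Ioc (0 : ℝ) 1,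
      (∫ x in K, lagPot z (cs s) x * g x) - (∫ x in K, lagPot y c x * g x) ≤ R := by
    intro s hs
    have h := Vale.Agent.H77.path_estimate hKc hKconv hKint hD (fun x => s * g x)
      (hgm.const_mul s) (hgsb s hs) (hgs0 s) m hm hsum hex₀ (hex₁ s hs)
      (fun y' hy' c₀ c₁ hc₀ hc₁ =>
        Vale.Agent.H65.bary_stability hd hKc hKconv hD (fun x => s * g x) (hgm.const_mul s)
          (hgsb s hs) y' hy' m hm c₀ c₁ hc₀ hc₁)
      y z hy hz c (cs s) h₀ (hcs s hs)
    have e1 : ∫ x in K, (lagPot z (cs s) x - lagPot y c x) * (s * g x)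
        = s * ((∫ x in K, lagPot z (cs s) x * g x) - (∫ x in K, lagPot y c x * g x)) := by
      rw [← integral_sub (integrableOn_lagPot_mul hKc z (cs s) hgm hgb)
        (integrableOn_lagPot_mul hKc y c hgm hgb), ← integral_const_mul]
      exact integral_congr_ae (Filter.Eventually.of_forall fun x => by ring)
    have e2 : Real.sqrt (∫ x in K, (s * g x) ^ 2) = s * Real.sqrt (∫ x in K, g x ^ 2) := by
      have e3 : ∫ x in K, (s * g x) ^ 2 = s ^ 2 * ∫ x in K, g x ^ 2 := by
        rw [← integral_const_mul]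
        exact integral_congr_ae (Filter.Eventually.of_forall fun x => by ring)
      rw [e3, Real.sqrt_mul (sq_nonneg s), Real.sqrt_sq hs.1.le]
    rw [e1, e2] at h
    have h' : s * ((∫ x in K, lagPot z (cs s) x * g x) - (∫ x in K, lagPot y c x * g x))
        ≤ s * R := by
      rw [hR]
      calc s * ((∫ x in K, lagPot z (cs s) x * g x) - (∫ x in K, lagPot y c x * g x))
          ≤ Real.sqrt 10 * D * (s * Real.sqrt (∫ x in K, g x ^ 2)) *
            Real.sqrt (∑ i, m i * ‖z i - y i‖ ^ 2) := h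
        _ = s * (Real.sqrt 10 * D * Real.sqrt (∫ x in K, g x ^ 2) *
            Real.sqrt (∑ i, m i * ‖z i - y i‖ ^ 2)) := by ring
    exact le_of_mul_le_mul_left h' hs.1
  -- the limit `s → 0`
  have hlim := Vale.Agent.H32.RowL.potential_limit hKc hKconv hKint g hgm
    (fun x => (hgb x).trans (by norm_num)) hg0 z hz m hm c' h₁ cs 1 one_pos hcs
  have hle : (∫ x in K, lagPot z c' x * g x) - (∫ x in K, lagPot y c x * g x) ≤ R := by
    refine le_of_tendsto (hlim.sub_const _) ?_
    filter_upwards [Ioc_mem_nhdsGT (zero_lt_one' ℝ)] with s hs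
    exact hpath s hs
  -- evaluate both sides
  obtain ⟨I, hI⟩ : ∃ I : ℝ, I = ∫ x in K, u x ^ 2 := ⟨_, rfl⟩
  have hI0 : 0 ≤ I := by
    rw [hI]; exact integral_nonneg fun x => sq_nonneg _
  have hu2int : IntegrableOn (fun x => u x ^ 2) K :=
    (huc.pow 2).continuousOn.integrableOn_compact hKc
  have hL : (∫ x in K, lagPot z c' x * g x) - (∫ x in K, lagPot y c x * g x)
      = I / (2 * B) := by
    rw [← integral_sub (integrableOn_lagPot_mul hKc z c' hgm hgb)
      (integrableOn_lagPot_mul hKc y c hgm hgb)]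
    have e1 : ∫ x in K, (lagPot z c' x * g x - lagPot y c x * g x)
        = (∫ x in K, u x ^ 2 / (2 * B)) + κ * ∫ x in K, g x := by
      rw [← integral_const_mul, ← integral_add (hu2int.div_const _) (hgint.const_mul κ)]
      refine setIntegral_congr_fun hKm fun x hx => ?_
      simp only [hgK x hx, hux x]
      field_simp
      ring
    rw [e1, hg0, mul_zero, add_zero, integral_div, hI]
  have hG : ∫ x in K, g x ^ 2 = I / (2 * B) ^ 2 := by
    rw [hI, ← integral_div]
    refine setIntegral_congr_fun hKm fun x hx => ?_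
    simp only [hgK x hx]
    rw [div_pow]
  have hW0 : 0 ≤ ∑ i, m i * ‖z i - y i‖ ^ 2 :=
    Finset.sum_nonneg fun i _ => mul_nonneg (hm i).le (sq_nonneg _)
  have hgoal : ∫ x in K, (lagPot z c' x - lagPot y c x - κ) ^ 2 = I := by
    rw [hI]
    exact integral_congr_ae (Filter.Eventually.of_forall fun x => by simp only [hux x])
  rw [hgoal]
  rcases hI0.eq_or_lt with hI00 | hIpos
  · rw [← hI00]
    exact mul_nonneg (mul_nonneg (by norm_num) (sq_nonneg _)) hW0
  · have hsI : 0 < Real.sqrt I := Real.sqrt_pos.2 hIpos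
    have hsq : Real.sqrt I * Real.sqrt I = I := Real.mul_self_sqrt hI0
    have e5 : Real.sqrt (I / (2 * B) ^ 2) = Real.sqrt I / (2 * B) := by
      rw [Real.sqrt_div hI0, Real.sqrt_sq (by positivity)]
    rw [hL, hR, hG, e5] at hle
    -- `I / (2B) ≤ √10 * D * (√I / (2B)) * W`
    have h2B : (0 : ℝ) < 2 * B := by positivity
    have h6 : I ≤ Real.sqrt 10 * D * Real.sqrt I *
        Real.sqrt (∑ i, m i * ‖z i - y i‖ ^ 2) := by
      have := mul_le_mul_of_nonneg_right hle h2B.le
      calc I = I / (2 * B) * (2 * B) := by field_simp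
        _ ≤ Real.sqrt 10 * D * (Real.sqrt I / (2 * B)) *
            Real.sqrt (∑ i, m i * ‖z i - y i‖ ^ 2) * (2 * B) := this
        _ = Real.sqrt 10 * D * Real.sqrt I *
            Real.sqrt (∑ i, m i * ‖z i - y i‖ ^ 2) := by field_simp
    have h7 : Real.sqrt I ≤ Real.sqrt 10 * D * Real.sqrt (∑ i, m i * ‖z i - y i‖ ^ 2) := by
      have h8 : Real.sqrt I * Real.sqrt I ≤ Real.sqrt I *
          (Real.sqrt 10 * D * Real.sqrt (∑ i, m i * ‖z i - y i‖ ^ 2)) := by
        rw [hsq]
        calc I ≤ Real.sqrt 10 * D * Real.sqrt I *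
            Real.sqrt (∑ i, m i * ‖z i - y i‖ ^ 2) := h6
          _ = Real.sqrt I *
            (Real.sqrt 10 * D * Real.sqrt (∑ i, m i * ‖z i - y i‖ ^ 2)) := by ring
      exact le_of_mul_le_mul_left h8 hsI
    calc I = Real.sqrt I ^ 2 := (Real.sq_sqrt hI0).symm
      _ ≤ (Real.sqrt 10 * D * Real.sqrt (∑ i, m i * ‖z i - y i‖ ^ 2)) ^ 2 :=
          pow_le_pow_left₀ hsI.le h7 2
      _ = Real.sqrt 10 ^ 2 * D ^ 2 * Real.sqrt (∑ i, m i * ‖z i - y i‖ ^ 2) ^ 2 := by ring
      _ = 10 * D ^ 2 * ∑ i, m i * ‖z i - y i‖ ^ 2 := by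
          rw [Real.sq_sqrt (by norm_num : (0 : ℝ) ≤ 10), Real.sq_sqrt hW0]

/-- The same statement with the cells and potentials written out (no auxiliary definitions),
for every dimension `d` (the case `d = 0` is trivial), and without the normalisation of the
masses (which follows from the cell masses). -/
theorem c1_discrete {d : ℕ} {ι : Type*} [Fintype ι] [Nonempty ι]
    {K : Set (EuclideanSpace ℝ (Fin d))} (hKc : IsCompact K) (hKconv : Convex ℝ K)
    (hKint : (interior K).Nonempty)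
    {D : ℝ} (hD : ∀ x ∈ K, ∀ x' ∈ K, ‖x - x'‖ ≤ D)
    (y z : ι → EuclideanSpace ℝ (Fin d)) (hy : Function.Injective y) (hz : Function.Injective z)
    (m : ι → ℝ) (hm : ∀ i, 0 < m i) (c₀ c₁ : ι → ℝ)
    (h₀ : ∀ j, (volume : Measure (EuclideanSpace ℝ (Fin d))).real
      {x | x ∈ K ∧ ∀ k, inner ℝ x (y k) - c₀ k ≤ inner ℝ x (y j) - c₀ j} = m j)
    (h₁ : ∀ j, (volume : Measure (EuclideanSpace ℝ (Fin d))).real
      {x | x ∈ K ∧ ∀ k, inner ℝ x (z k) - c₁ k ≤ inner ℝ x (z j) - c₁ j} = m j) :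
    ∃ a : ℝ, ∫ x in K, ((⨆ j, (inner ℝ x (z j) - c₁ j)) - (⨆ j, (inner ℝ x (y j) - c₀ j)) - a) ^ 2
      ≤ 10 * D ^ 2 * ∑ i, m i * ‖z i - y i‖ ^ 2 := by
  have hW0 : 0 ≤ 10 * D ^ 2 * ∑ i, m i * ‖z i - y i‖ ^ 2 :=
    mul_nonneg (mul_nonneg (by norm_num) (sq_nonneg _))
      (Finset.sum_nonneg fun i _ => mul_nonneg (hm i).le (sq_nonneg _))
  rcases Nat.eq_zero_or_pos d with hd0 | hdpos
  · subst hd0
    have hsub : Subsingleton (EuclideanSpace ℝ (Fin 0)) :=
      ⟨fun a b => by ext i; exact i.elim0⟩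
    refine ⟨(⨆ j, (inner ℝ (0 : EuclideanSpace ℝ (Fin 0)) (z j) - c₁ j))
      - (⨆ j, (inner ℝ (0 : EuclideanSpace ℝ (Fin 0)) (y j) - c₀ j)), ?_⟩
    have h0 : ∀ x : EuclideanSpace ℝ (Fin 0),
        ((⨆ j, (inner ℝ x (z j) - c₁ j)) - (⨆ j, (inner ℝ x (y j) - c₀ j))
          - ((⨆ j, (inner ℝ (0 : EuclideanSpace ℝ (Fin 0)) (z j) - c₁ j))
            - (⨆ j, (inner ℝ (0 : EuclideanSpace ℝ (Fin 0)) (y j) - c₀ j)))) ^ 2 = 0 := by
      intro x
      rw [Subsingleton.elim x 0, sub_self]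
      norm_num
    simp only [h0, integral_zero]
    exact hW0
  · have hKm : MeasurableSet K := hKc.measurableSet
    have hKfin : volume K ≠ ⊤ := hKc.measure_lt_top.ne
    have hsum : ∑ j, m j = volume.real K := by
      have h1i : IntegrableOn (fun _ : EuclideanSpace ℝ (Fin d) => (1 : ℝ)) K :=
        integrableOn_const hKfin
      have h := Vale.Agent.H77.OT.integral_eq_sum_cell
        (volume : Measure (EuclideanSpace ℝ (Fin d))) hKm hy c₀ (fun _ => (1 : ℝ)) h1i
      simp only [setIntegral_const, smul_eq_mul, mul_one] at h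
      rw [h]
      exact Finset.sum_congr rfl fun j _ => (h₀ j).symm
    have hp₀ : IsOptPrice K 0 y m c₀ := by
      intro j
      simp only [Pi.zero_apply, add_zero, setIntegral_const, smul_eq_mul, mul_one]
      exact h₀ j
    have hp₁ : IsOptPrice K 0 z m c₁ := by
      intro j
      simp only [Pi.zero_apply, add_zero, setIntegral_const, smul_eq_mul, mul_one]
      exact h₁ j
    obtain ⟨a, ha⟩ := potential_L2_stability hdpos hKc hKconv hKint
      (fun x hx x' hx' => by rw [dist_eq_norm]; exact hD x hx x' hx') y z hy hz m hm hsum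
      c₀ c₁ hp₀ hp₁
    refine ⟨a, ?_⟩
    have e : ∀ x : EuclideanSpace ℝ (Fin d),
        ((⨆ j, (inner ℝ x (z j) - c₁ j)) - (⨆ j, (inner ℝ x (y j) - c₀ j)) - a) ^ 2
          = (lagPot z c₁ x - lagPot y c₀ x - a) ^ 2 := by
      intro x
      have e1 : lagPot z c₁ x = ⨆ j, (inner ℝ x (z j) - c₁ j) :=
        Finset.sup'_univ_eq_ciSup _
      have e2 : lagPot y c₀ x = ⨆ j, (inner ℝ x (y j) - c₀ j) :=
        Finset.sup'_univ_eq_ciSup _
      rw [e1, e2]
    simp only [e]
    exact ha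

/-- The binder shape consumed by the final assembly (`hd`, `dist`-form diameter bound, and the
normalisation of the masses as hypotheses). -/
theorem c1_discrete_row {d : ℕ} (hd : 1 ≤ d) {ι : Type*} [Fintype ι] [Nonempty ι]
    {K : Set (EuclideanSpace ℝ (Fin d))} (hKc : IsCompact K) (hconv : Convex ℝ K)
    (hint : (interior K).Nonempty)
    {D : ℝ} (hD : ∀ x ∈ K, ∀ x' ∈ K, dist x x' ≤ D)
    (y z : ι → EuclideanSpace ℝ (Fin d)) (hy : Function.Injective y) (hz : Function.Injective z)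
    (m : ι → ℝ) (hm : ∀ j, 0 < m j)
    (hsum : ∑ j, m j = (volume : Measure (EuclideanSpace ℝ (Fin d))).real K) (c0 c1 : ι → ℝ)
    (h0 : ∀ j, (volume : Measure (EuclideanSpace ℝ (Fin d))).real
      {x | x ∈ K ∧ ∀ k, inner ℝ x (y k) - c0 k ≤ inner ℝ x (y j) - c0 j} = m j)
    (h1 : ∀ j, (volume : Measure (EuclideanSpace ℝ (Fin d))).real
      {x | x ∈ K ∧ ∀ k, inner ℝ x (z k) - c1 k ≤ inner ℝ x (z j) - c1 j} = m j) :
    ∃ a : ℝ, ∫ x in K, ((⨆ j, (inner ℝ x (z j) - c1 j)) - (⨆ j, (inner ℝ x (y j) - c0 j)) - a) ^ 2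
      ≤ 10 * D ^ 2 * ∑ i, m i * ‖z i - y i‖ ^ 2 := by
  have _h := hd
  have _h' := hsum
  exact c1_discrete hKc hconv hint
    (fun x hx x' hx' => by rw [← dist_eq_norm]; exact hD x hx x' hx') y z hy hz m hm c0 c1 h0 h1

end Vale.Agent.H22.OT
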